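import Vale.Agent.P199.Quad

/-! Kurosh's problem for division rings: special generating sets. -/

namespace Vale.Agent.Results.P199.SpecialGenerators

/-- Here `F` is a field and `D` a division ring that is an algebraic `F`-algebra (for instance
`F` the centre of `D`). -/
theorem result {F D : Type*} [Field F] [DivisionRing D] [Algebra F D]
    [Algebra.IsAlgebraic F D] :
    -- (1) generators whose multiplicative group is metabelian
    (∀ S : Set Dˣ, S.Finite →
      (∀ a ∈ commutator (Subgroup.closure S), ∀ b ∈ commutator (Subgroup.closure S),
        a * b = b * a) →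
      FiniteDimensional F (Algebra.adjoin F ((fun u : Dˣ => (u : D)) '' S))) ∧
    -- (2) two quadratic generators
    (∀ (a b : D) (p q r s : F), a * a = p • a + q • (1 : D) → b * b = r • b + s • (1 : D) →
      FiniteDimensional F (Algebra.adjoin F ({a, b} : Set D))) ∧
    -- (3) adjoining an element that normalises a finite-dimensional subalgebra
    (∀ (B : Subalgebra F D) (g : Dˣ), FiniteDimensional F B →
      (∀ x ∈ B, (g : D) * x * ((g⁻¹ : Dˣ) : D) ∈ B) →
      FiniteDimensional F (Algebra.adjoin F ((B : Set D) ∪ {(g : D)}))) :=
  ⟨fun S hS h => Vale.Agent.P199.metabelian S hS h,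
    fun a b p q r s ha hb => Vale.Agent.P199.quadratic a b p q r s ha hb,
    fun B g hB hn => by
      haveI := hB
      exact Vale.Agent.P199.adjoin_unit B g (Algebra.IsAlgebraic.isAlgebraic _) hn⟩

end Vale.Agent.Results.P199.SpecialGenerators
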